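import Vale.Agent.H22.BBL.OneDim

/-!
# The one-dimensional Borell-Brascamp-Lieb inequality in transport form
-/

namespace Vale.Agent.H22

open MeasureTheory Set Filter Topology

/-- A purely order-theoretic estimate for two functions which are monotone on an interval:
on a set where their average stays in `(α, β]`, the ranges of the two functions are contained
in intervals whose average length is at most `β - α`. -/
theorem range_bound {Q₀ Q₁ : ℝ → ℝ} {m α β : ℝ} (hmon₀ : MonotoneOn Q₀ (Ioo 0 m))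
    (hmon₁ : MonotoneOn Q₁ (Ioo 0 m)) {S : Set ℝ} (hsub : S ⊆ Ioo 0 m)
    (hS : ∀ u ∈ S, α < (1 / 2 : ℝ) * (Q₀ u + Q₁ u) ∧ (1 / 2 : ℝ) * (Q₀ u + Q₁ u) ≤ β)
    (hne : S.Nonempty) :
    ∃ p₀ q₀ p₁ q₁ : ℝ, (∀ u ∈ S, Q₀ u ∈ Icc p₀ q₀) ∧ (∀ u ∈ S, Q₁ u ∈ Icc p₁ q₁) ∧
      p₀ ≤ q₀ ∧ p₁ ≤ q₁ ∧ (1 / 2 : ℝ) * (q₀ - p₀) + (1 / 2 : ℝ) * (q₁ - p₁) ≤ β - α := by
  obtain ⟨us, hus⟩ := hne
  have hne₀ : (Q₀ '' S).Nonempty := ⟨Q₀ us, us, hus, rfl⟩
  have hne₁ : (Q₁ '' S).Nonempty := ⟨Q₁ us, us, hus, rfl⟩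
  have hba₀ : BddAbove (Q₀ '' S) := by
    refine ⟨max (Q₀ us) (2 * β - Q₁ us), ?_⟩
    rintro _ ⟨u, hu, rfl⟩
    rcases le_total u us with h | h
    · exact (hmon₀ (hsub hu) (hsub hus) h).trans (le_max_left _ _)
    · have h1 := hmon₁ (hsub hus) (hsub hu) h
      have h2 := (hS u hu).2
      exact le_trans (by linarith) (le_max_right _ _)
  have hba₁ : BddAbove (Q₁ '' S) := by
    refine ⟨max (Q₁ us) (2 * β - Q₀ us), ?_⟩
    rintro _ ⟨u, hu, rfl⟩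
    rcases le_total u us with h | h
    · exact (hmon₁ (hsub hu) (hsub hus) h).trans (le_max_left _ _)
    · have h1 := hmon₀ (hsub hus) (hsub hu) h
      have h2 := (hS u hu).2
      exact le_trans (by linarith) (le_max_right _ _)
  have hbb₀ : BddBelow (Q₀ '' S) := by
    refine ⟨min (Q₀ us) (2 * α - Q₁ us), ?_⟩
    rintro _ ⟨u, hu, rfl⟩
    rcases le_total us u with h | h
    · exact (min_le_left _ _).trans (hmon₀ (hsub hus) (hsub hu) h)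
    · have h1 := hmon₁ (hsub hu) (hsub hus) h
      have h2 := (hS u hu).1
      exact le_trans (min_le_right _ _) (by linarith)
  have hbb₁ : BddBelow (Q₁ '' S) := by
    refine ⟨min (Q₁ us) (2 * α - Q₀ us), ?_⟩
    rintro _ ⟨u, hu, rfl⟩
    rcases le_total us u with h | h
    · exact (min_le_left _ _).trans (hmon₁ (hsub hus) (hsub hu) h)
    · have h1 := hmon₀ (hsub hu) (hsub hus) h
      have h2 := (hS u hu).1
      exact le_trans (min_le_right _ _) (by linarith)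
  refine ⟨sInf (Q₀ '' S), sSup (Q₀ '' S), sInf (Q₁ '' S), sSup (Q₁ '' S), ?_, ?_, ?_, ?_, ?_⟩
  · intro u hu
    exact ⟨csInf_le hbb₀ ⟨u, hu, rfl⟩, le_csSup hba₀ ⟨u, hu, rfl⟩⟩
  · intro u hu
    exact ⟨csInf_le hbb₁ ⟨u, hu, rfl⟩, le_csSup hba₁ ⟨u, hu, rfl⟩⟩
  · exact (csInf_le hbb₀ ⟨us, hus, rfl⟩).trans (le_csSup hba₀ ⟨us, hus, rfl⟩)
  · exact (csInf_le hbb₁ ⟨us, hus, rfl⟩).trans (le_csSup hba₁ ⟨us, hus, rfl⟩)
  · -- epsilon argument
    have key : ∀ ε : ℝ, 0 < ε →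
        (1 / 2 : ℝ) * (sSup (Q₀ '' S) - sInf (Q₀ '' S)) +
          (1 / 2 : ℝ) * (sSup (Q₁ '' S) - sInf (Q₁ '' S)) ≤ β - α + 2 * ε := by
      intro ε hε
      obtain ⟨_, ⟨a₀, ha₀, rfl⟩, hA₀⟩ :=
        exists_lt_of_lt_csSup hne₀ (by linarith : sSup (Q₀ '' S) - ε < sSup (Q₀ '' S))
      obtain ⟨_, ⟨a₁, ha₁, rfl⟩, hA₁⟩ :=
        exists_lt_of_lt_csSup hne₁ (by linarith : sSup (Q₁ '' S) - ε < sSup (Q₁ '' S))
      obtain ⟨_, ⟨b₀, hb₀, rfl⟩, hB₀⟩ :=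
        exists_lt_of_csInf_lt hne₀ (by linarith : sInf (Q₀ '' S) < sInf (Q₀ '' S) + ε)
      obtain ⟨_, ⟨b₁, hb₁, rfl⟩, hB₁⟩ :=
        exists_lt_of_csInf_lt hne₁ (by linarith : sInf (Q₁ '' S) < sInf (Q₁ '' S) + ε)
      -- the larger of a₀ a₁ and the smaller of b₀ b₁
      have hup : ∃ u ∈ S, sSup (Q₀ '' S) - ε < Q₀ u ∧ sSup (Q₁ '' S) - ε < Q₁ u := by
        rcases le_total a₀ a₁ with h | h
        · exact ⟨a₁, ha₁, lt_of_lt_of_le hA₀ (hmon₀ (hsub ha₀) (hsub ha₁) h), hA₁⟩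
        · exact ⟨a₀, ha₀, hA₀, lt_of_lt_of_le hA₁ (hmon₁ (hsub ha₁) (hsub ha₀) h)⟩
      have hdn : ∃ u ∈ S, Q₀ u < sInf (Q₀ '' S) + ε ∧ Q₁ u < sInf (Q₁ '' S) + ε := by
        rcases le_total b₀ b₁ with h | h
        · exact ⟨b₀, hb₀, hB₀, lt_of_le_of_lt (hmon₁ (hsub hb₀) (hsub hb₁) h) hB₁⟩
        · exact ⟨b₁, hb₁, lt_of_le_of_lt (hmon₀ (hsub hb₁) (hsub hb₀) h) hB₀, hB₁⟩
      obtain ⟨u, hu, hu0, hu1⟩ := hup
      obtain ⟨v, hv, hv0, hv1⟩ := hdn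
      have h1 := (hS u hu).2
      have h2 := (hS v hv).1
      linarith
    by_contra hcon
    push Not at hcon
    obtain ⟨d, hd⟩ : ∃ d, d = (1 / 2 : ℝ) * (sSup (Q₀ '' S) - sInf (Q₀ '' S)) +
          (1 / 2 : ℝ) * (sSup (Q₁ '' S) - sInf (Q₁ '' S)) - (β - α) := ⟨_, rfl⟩
    have hdpos : 0 < d := by rw [hd]; linarith
    have := key (d / 4) (by positivity)
    linarith

/-- Mass of an interval under the image of the weighted measure by the average of the two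
quantile maps. -/
theorem interval_mass_le {f₀ f₁ Q₀ Q₁ : ℝ → ℝ} {m : ℝ} (hQ₀ : Measurable Q₀) (hQ₁ : Measurable Q₁)
    (hf₀m : Measurable f₀) (hf₁m : Measurable f₁) (hf₀ : ∀ x, 0 ≤ f₀ x) (hf₁ : ∀ x, 0 ≤ f₁ x)
    (hmon₀ : MonotoneOn Q₀ (Ioo 0 m)) (hmon₁ : MonotoneOn Q₁ (Ioo 0 m))
    (hL₀ : ((volume.restrict (Ioo 0 m)).withDensity
      (fun u => ENNReal.ofReal (f₀ (Q₀ u))⁻¹)).map Q₀ ≤ volume)
    (hL₁ : ((volume.restrict (Ioo 0 m)).withDensity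
      (fun u => ENNReal.ofReal (f₁ (Q₁ u))⁻¹)).map Q₁ ≤ volume)
    (α β : ℝ) :
    ((volume.restrict (Ioo 0 m)).withDensity
      (fun u => ENNReal.ofReal (bblOmega 1 (f₀ (Q₀ u)) (f₁ (Q₁ u))))).map
        (fun u => (1 / 2 : ℝ) • (Q₀ u + Q₁ u)) (Ioc α β) ≤ ENNReal.ofReal (β - α) := by
  have hQb : Measurable (fun u => (1 / 2 : ℝ) • (Q₀ u + Q₁ u)) := by fun_prop
  have hφ₀ : Measurable (fun u => ENNReal.ofReal (f₀ (Q₀ u))⁻¹) :=
    (hf₀m.comp hQ₀).inv.ennreal_ofReal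
  have hφ₁ : Measurable (fun u => ENNReal.ofReal (f₁ (Q₁ u))⁻¹) :=
    (hf₁m.comp hQ₁).inv.ennreal_ofReal
  have hS : MeasurableSet ((fun u => (1 / 2 : ℝ) • (Q₀ u + Q₁ u)) ⁻¹' Ioc α β) :=
    hQb measurableSet_Ioc
  rw [Measure.map_apply hQb measurableSet_Ioc, withDensity_apply _ hS,
    Measure.restrict_restrict hS]
  obtain ⟨S, hSdef⟩ : ∃ S, S = (fun u => (1 / 2 : ℝ) • (Q₀ u + Q₁ u)) ⁻¹' Ioc α β ∩ Ioo 0 m :=
    ⟨_, rfl⟩
  rw [← hSdef]
  have hSm : MeasurableSet S := hSdef ▸ hS.inter measurableSet_Ioo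
  have hsub : S ⊆ Ioo 0 m := hSdef ▸ inter_subset_right
  have hSprop : ∀ u ∈ S, α < (1 / 2 : ℝ) * (Q₀ u + Q₁ u) ∧ (1 / 2 : ℝ) * (Q₀ u + Q₁ u) ≤ β := by
    intro u hu
    rw [hSdef] at hu
    have := hu.1
    simp only [mem_preimage, mem_Ioc, smul_eq_mul] at this
    exact this
  by_cases hne : S.Nonempty
  · obtain ⟨p₀, q₀, p₁, q₁, hr₀, hr₁, hpq₀, hpq₁, hlen⟩ :=
      range_bound hmon₀ hmon₁ hsub hSprop hne
    -- pointwise splitting of the weight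
    have hsplit : ∀ u, ENNReal.ofReal (bblOmega 1 (f₀ (Q₀ u)) (f₁ (Q₁ u))) =
        ENNReal.ofReal (1 / 2) * ENNReal.ofReal (f₀ (Q₀ u))⁻¹ +
          ENNReal.ofReal (1 / 2) * ENNReal.ofReal (f₁ (Q₁ u))⁻¹ := by
      intro u
      rw [bblOmega_one, ← ENNReal.ofReal_mul (by norm_num), ← ENNReal.ofReal_mul (by norm_num),
        ← ENNReal.ofReal_add (mul_nonneg (by norm_num) (inv_nonneg.2 (hf₀ _)))
          (mul_nonneg (by norm_num) (inv_nonneg.2 (hf₁ _)))]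
      congr 1
      ring
    simp_rw [hsplit]
    rw [lintegral_add_left (hφ₀.const_mul _), lintegral_const_mul _ hφ₀,
      lintegral_const_mul _ hφ₁]
    -- each piece
    have piece : ∀ (f Q : ℝ → ℝ) (p q : ℝ), Measurable Q →
        Measurable (fun u => ENNReal.ofReal (f (Q u))⁻¹) →
        ((volume.restrict (Ioo 0 m)).withDensity
          (fun u => ENNReal.ofReal (f (Q u))⁻¹)).map Q ≤ volume →
        (∀ u ∈ S, Q u ∈ Icc p q) →
        ∫⁻ u in S, ENNReal.ofReal (f (Q u))⁻¹ ≤ ENNReal.ofReal (q - p) := by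
      intro f Q p q hQ hφ hL hr
      have h1 : ((volume.restrict (Ioo 0 m)).withDensity
          (fun u => ENNReal.ofReal (f (Q u))⁻¹)) S = ∫⁻ u in S, ENNReal.ofReal (f (Q u))⁻¹ := by
        rw [withDensity_apply _ hSm, Measure.restrict_restrict hSm,
          inter_eq_self_of_subset_left hsub]
      rw [← h1]
      calc ((volume.restrict (Ioo 0 m)).withDensity (fun u => ENNReal.ofReal (f (Q u))⁻¹)) S
          ≤ ((volume.restrict (Ioo 0 m)).withDensity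
              (fun u => ENNReal.ofReal (f (Q u))⁻¹)) (Q ⁻¹' Icc p q) :=
            measure_mono fun u hu => hr u hu
        _ = (((volume.restrict (Ioo 0 m)).withDensity
              (fun u => ENNReal.ofReal (f (Q u))⁻¹)).map Q) (Icc p q) :=
            (Measure.map_apply hQ measurableSet_Icc).symm
        _ ≤ volume (Icc p q) := hL _
        _ = ENNReal.ofReal (q - p) := Real.volume_Icc
    have hp₀ := piece f₀ Q₀ p₀ q₀ hQ₀ hφ₀ hL₀ hr₀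
    have hp₁ := piece f₁ Q₁ p₁ q₁ hQ₁ hφ₁ hL₁ hr₁
    calc ENNReal.ofReal (1 / 2) * (∫⁻ u in S, ENNReal.ofReal (f₀ (Q₀ u))⁻¹) +
          ENNReal.ofReal (1 / 2) * (∫⁻ u in S, ENNReal.ofReal (f₁ (Q₁ u))⁻¹)
        ≤ ENNReal.ofReal (1 / 2) * ENNReal.ofReal (q₀ - p₀) +
          ENNReal.ofReal (1 / 2) * ENNReal.ofReal (q₁ - p₁) := by gcongr
      _ = ENNReal.ofReal ((1 / 2 : ℝ) * (q₀ - p₀) + (1 / 2 : ℝ) * (q₁ - p₁)) := by
          rw [← ENNReal.ofReal_mul (by norm_num), ← ENNReal.ofReal_mul (by norm_num),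
            ← ENNReal.ofReal_add (mul_nonneg (by norm_num) (by linarith))
              (mul_nonneg (by norm_num) (by linarith))]
      _ ≤ ENNReal.ofReal (β - α) := ENNReal.ofReal_le_ofReal hlen
  · rw [not_nonempty_iff_eq_empty.1 hne]
    simp

/-- **The one-dimensional Borell-Brascamp-Lieb inequality in transport form.** -/
theorem bblProp_real : BBLProp (volume : Measure ℝ) 1 := by
  intro f₀ f₁ a b h C hf₀m hf₁m ham hbm hhm hf₀ hf₁ hi₀ hi₁ haC hbC hmass hyp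
  obtain ⟨m, hm⟩ : ∃ m, ∫ x, f₀ x = m := ⟨_, rfl⟩
  have hm1 : ∫ x, f₁ x = m := by rw [← hmass, hm]
  have hfin₀ := densMeasure_finite hi₀
  have hfin₁ := densMeasure_finite hi₁
  have hmu₀ : densMeasure f₀ univ = ENNReal.ofReal m := by rw [densMeasure_univ hf₀ hi₀, hm]
  have hmu₁ : densMeasure f₁ univ = ENNReal.ofReal m := by rw [densMeasure_univ hf₁ hi₁, hm1]
  have hA := integral_mul_eq_quantile hf₀m hf₀ hi₀ ham hm
  have hB := integral_mul_eq_quantile hf₁m hf₁ hi₁ hbm hm1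
  have hpos₀ := ae_pos_quantile hf₀m hf₀ hi₀ hm
  have hpos₁ := ae_pos_quantile hf₁m hf₁ hi₁ hm1
  have hL₀ := map_inv_density_le hf₀m hf₀ hi₀ hm
  have hL₁ := map_inv_density_le hf₁m hf₁ hi₁ hm1
  have hQ₀ := quantileM_measurable (densMeasure f₀) hmu₀
  have hQ₁ := quantileM_measurable (densMeasure f₁) hmu₁
  have hmon₀ := quantileM_monotoneOn (densMeasure f₀) hmu₀
  have hmon₁ := quantileM_monotoneOn (densMeasure f₁) hmu₁
  obtain ⟨Q₀, hQ₀def⟩ : ∃ Q, Q = quantileM (densMeasure f₀) m := ⟨_, rfl⟩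
  obtain ⟨Q₁, hQ₁def⟩ : ∃ Q, Q = quantileM (densMeasure f₁) m := ⟨_, rfl⟩
  rw [← hQ₀def] at hA hpos₀ hL₀ hQ₀ hmon₀
  rw [← hQ₁def] at hB hpos₁ hL₁ hQ₁ hmon₁
  have hia : IntegrableOn (fun u => a (Q₀ u)) (Ioo 0 m) := by
    refine Measure.integrableOn_of_bounded (M := C) measure_Ioo_lt_top.ne
      (ham.comp hQ₀).aestronglyMeasurable ?_
    exact ae_of_all _ fun u => by simpa [Real.norm_eq_abs] using haC (Q₀ u)
  have hib : IntegrableOn (fun u => b (Q₁ u)) (Ioo 0 m) := by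
    refine Measure.integrableOn_of_bounded (M := C) measure_Ioo_lt_top.ne
      (hbm.comp hQ₁).aestronglyMeasurable ?_
    exact ae_of_all _ fun u => by simpa [Real.norm_eq_abs] using hbC (Q₁ u)
  rw [hA, hB, ← integral_add hia hib]
  refine (ofReal_integral_le_lintegral (hia.add hib)).trans ?_
  have hQb : Measurable (fun u => (1 / 2 : ℝ) • (Q₀ u + Q₁ u)) := by fun_prop
  have hwm : Measurable (fun u => ENNReal.ofReal (bblOmega 1 (f₀ (Q₀ u)) (f₁ (Q₁ u)))) := by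
    simp_rw [bblOmega_one]
    exact (((hf₀m.comp hQ₀).inv.add (hf₁m.comp hQ₁).inv).div_const 2).ennreal_ofReal
  have hle : ((volume.restrict (Ioo 0 m)).withDensity
      (fun u => ENNReal.ofReal (bblOmega 1 (f₀ (Q₀ u)) (f₁ (Q₁ u))))).map
        (fun u => (1 / 2 : ℝ) • (Q₀ u + Q₁ u)) ≤ volume :=
    measure_le_volume_of_Ioc _ fun α β =>
      interval_mass_le hQ₀ hQ₁ hf₀m hf₁m hf₀ hf₁ hmon₀ hmon₁ hL₀ hL₁ α β
  calc ∫⁻ u in Ioo 0 m, ENNReal.ofReal ((fun u => a (Q₀ u)) u + (fun u => b (Q₁ u)) u)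
      ≤ ∫⁻ u in Ioo 0 m, h ((1 / 2 : ℝ) • (Q₀ u + Q₁ u)) *
          ENNReal.ofReal (bblOmega 1 (f₀ (Q₀ u)) (f₁ (Q₁ u))) := by
        apply lintegral_mono_ae
        filter_upwards [hpos₀, hpos₁] with u h0 h1
        exact hyp _ _ h0 h1
    _ = ∫⁻ u, h ((1 / 2 : ℝ) • (Q₀ u + Q₁ u)) ∂((volume.restrict (Ioo 0 m)).withDensity
          (fun u => ENNReal.ofReal (bblOmega 1 (f₀ (Q₀ u)) (f₁ (Q₁ u))))) := by
        have hhQ : Measurable (fun u => h ((1 / 2 : ℝ) • (Q₀ u + Q₁ u))) := hhm.comp hQb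
        rw [lintegral_withDensity_eq_lintegral_mul _ hwm hhQ]
        congr 1
        ext u
        simp only [Pi.mul_apply]
        rw [mul_comm]
    _ = ∫⁻ y, h y ∂(((volume.restrict (Ioo 0 m)).withDensity
          (fun u => ENNReal.ofReal (bblOmega 1 (f₀ (Q₀ u)) (f₁ (Q₁ u))))).map
            (fun u => (1 / 2 : ℝ) • (Q₀ u + Q₁ u))) := (lintegral_map hhm hQb).symm
    _ ≤ ∫⁻ y, h y := lintegral_mono' hle le_rfl

end Vale.Agent.H22
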