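import Mathlib

/-!
# The weight function of the Borell-Brascamp-Lieb inequality in transport form

`bblOmega n p q = ((p^(-1/n) + q^(-1/n))/2)^n` is the reciprocal of the power mean of order
`-1/n` of `p` and `q`.  The key algebraic fact is the Hoelder-type inequality
`bblOmega (n+1) (F*p) (G*q) ≤ bblOmega 1 F G * bblOmega n p q`.
-/

namespace Vale.Agent.H22

/-- `bblOmega n p q = ((p^(-1/n) + q^(-1/n))/2)^n`. -/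
noncomputable def bblOmega (n : ℕ) (p q : ℝ) : ℝ :=
  ((p ^ (-(1 : ℝ) / n) + q ^ (-(1 : ℝ) / n)) / 2) ^ n

theorem bblOmega_one (p q : ℝ) : bblOmega 1 p q = (p⁻¹ + q⁻¹) / 2 := by
  simp [bblOmega, Real.rpow_neg_one]

theorem bblOmega_nonneg (n : ℕ) {p q : ℝ} (hp : 0 ≤ p) (hq : 0 ≤ q) : 0 ≤ bblOmega n p q := by
  unfold bblOmega
  have h1 := Real.rpow_nonneg hp (-(1 : ℝ) / n)
  have h2 := Real.rpow_nonneg hq (-(1 : ℝ) / n)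
  positivity

theorem bblOmega_pos (n : ℕ) {p q : ℝ} (hp : 0 < p) (hq : 0 < q) : 0 < bblOmega n p q := by
  unfold bblOmega
  have h1 := Real.rpow_pos_of_pos hp (-(1 : ℝ) / n)
  have h2 := Real.rpow_pos_of_pos hq (-(1 : ℝ) / n)
  positivity

/-- Two-term Hoelder inequality. -/
theorem holder_two {u₀ u₁ w₀ w₁ θ : ℝ} (hu₀ : 0 < u₀) (hu₁ : 0 < u₁) (hw₀ : 0 < w₀)
    (hw₁ : 0 < w₁) (hθ0 : 0 ≤ θ) (hθ1 : θ ≤ 1) :
    u₀ ^ θ * w₀ ^ (1 - θ) + u₁ ^ θ * w₁ ^ (1 - θ) ≤ (u₀ + u₁) ^ θ * (w₀ + w₁) ^ (1 - θ) := by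
  have hU : 0 < u₀ + u₁ := by positivity
  have hW : 0 < w₀ + w₁ := by positivity
  have hUθ : 0 < (u₀ + u₁) ^ θ := Real.rpow_pos_of_pos hU _
  have hWθ : 0 < (w₀ + w₁) ^ (1 - θ) := Real.rpow_pos_of_pos hW _
  have key : ∀ u w : ℝ, 0 < u → 0 < w →
      u ^ θ * w ^ (1 - θ) ≤ (θ * (u / (u₀ + u₁)) + (1 - θ) * (w / (w₀ + w₁))) *
        ((u₀ + u₁) ^ θ * (w₀ + w₁) ^ (1 - θ)) := by
    intro u w hu hw
    have h := Real.geom_mean_le_arith_mean2_weighted hθ0 (by linarith : (0 : ℝ) ≤ 1 - θ)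
      (div_pos hu hU).le (div_pos hw hW).le (by ring : θ + (1 - θ) = 1)
    rw [Real.div_rpow hu.le hU.le, Real.div_rpow hw.le hW.le] at h
    have h2 : u ^ θ * w ^ (1 - θ) =
        (u ^ θ / (u₀ + u₁) ^ θ * (w ^ (1 - θ) / (w₀ + w₁) ^ (1 - θ))) *
          ((u₀ + u₁) ^ θ * (w₀ + w₁) ^ (1 - θ)) := by
      field_simp
    rw [h2]
    exact mul_le_mul_of_nonneg_right h (by positivity)
  have h0 := key u₀ w₀ hu₀ hw₀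
  have h1 := key u₁ w₁ hu₁ hw₁
  have hsum : (θ * (u₀ / (u₀ + u₁)) + (1 - θ) * (w₀ / (w₀ + w₁))) +
      (θ * (u₁ / (u₀ + u₁)) + (1 - θ) * (w₁ / (w₀ + w₁))) = 1 := by
    field_simp
    ring
  calc u₀ ^ θ * w₀ ^ (1 - θ) + u₁ ^ θ * w₁ ^ (1 - θ)
      ≤ (θ * (u₀ / (u₀ + u₁)) + (1 - θ) * (w₀ / (w₀ + w₁))) *
          ((u₀ + u₁) ^ θ * (w₀ + w₁) ^ (1 - θ)) +
        (θ * (u₁ / (u₀ + u₁)) + (1 - θ) * (w₁ / (w₀ + w₁))) *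
          ((u₀ + u₁) ^ θ * (w₀ + w₁) ^ (1 - θ)) := add_le_add h0 h1
    _ = ((θ * (u₀ / (u₀ + u₁)) + (1 - θ) * (w₀ / (w₀ + w₁))) +
        (θ * (u₁ / (u₀ + u₁)) + (1 - θ) * (w₁ / (w₀ + w₁)))) *
          ((u₀ + u₁) ^ θ * (w₀ + w₁) ^ (1 - θ)) := by ring
    _ = (u₀ + u₁) ^ θ * (w₀ + w₁) ^ (1 - θ) := by rw [hsum, one_mul]

/-- Rewriting of the basic power. -/
theorem rpow_split (n : ℕ) (hn : 1 ≤ n) {F p : ℝ} (hF : 0 < F) (hp : 0 < p) :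
    (F * p) ^ (-(1 : ℝ) / ((n + 1 : ℕ) : ℝ)) =
      (F⁻¹) ^ (1 / ((n : ℝ) + 1)) * (p ^ (-(1 : ℝ) / n)) ^ (1 - 1 / ((n : ℝ) + 1)) := by
  have hn0 : (0 : ℝ) < n := by exact_mod_cast hn
  have hn1 : (0 : ℝ) < (n : ℝ) + 1 := by positivity
  rw [Real.mul_rpow hF.le hp.le, ← Real.rpow_mul hp.le, Real.inv_rpow hF.le, ← Real.rpow_neg hF.le]
  congr 2
  · push_cast; field_simp
  · push_cast; field_simp; ring

/-- The Hoelder-type inequality behind the induction on the dimension. -/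
theorem bblOmega_succ_le (n : ℕ) (hn : 1 ≤ n) {F G p q : ℝ} (hF : 0 < F) (hG : 0 < G)
    (hp : 0 < p) (hq : 0 < q) :
    bblOmega (n + 1) (F * p) (G * q) ≤ bblOmega 1 F G * bblOmega n p q := by
  have hn0 : (0 : ℝ) < n := by exact_mod_cast hn
  have hn1 : (0 : ℝ) < (n : ℝ) + 1 := by positivity
  rw [bblOmega_one]
  unfold bblOmega
  rw [rpow_split n hn hF hp, rpow_split n hn hG hq]
  have hw₀ : 0 < p ^ (-(1 : ℝ) / n) := Real.rpow_pos_of_pos hp _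
  have hw₁ : 0 < q ^ (-(1 : ℝ) / n) := Real.rpow_pos_of_pos hq _
  have hθ0 : (0 : ℝ) ≤ 1 / ((n : ℝ) + 1) := by positivity
  have hθ1 : 1 / ((n : ℝ) + 1) ≤ 1 := by
    rw [div_le_one hn1]; linarith
  have hH := holder_two (inv_pos.2 hF) (inv_pos.2 hG) hw₀ hw₁ hθ0 hθ1
  have hU : 0 < F⁻¹ + G⁻¹ := by positivity
  have hW : 0 < p ^ (-(1 : ℝ) / n) + q ^ (-(1 : ℝ) / n) := by positivity
  have hlhs : 0 ≤ (F⁻¹) ^ (1 / ((n : ℝ) + 1)) * (p ^ (-(1 : ℝ) / n)) ^ (1 - 1 / ((n : ℝ) + 1)) +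
      (G⁻¹) ^ (1 / ((n : ℝ) + 1)) * (q ^ (-(1 : ℝ) / n)) ^ (1 - 1 / ((n : ℝ) + 1)) := by
    have := Real.rpow_pos_of_pos (inv_pos.2 hF) (1 / ((n : ℝ) + 1))
    have := Real.rpow_pos_of_pos (inv_pos.2 hG) (1 / ((n : ℝ) + 1))
    have := Real.rpow_pos_of_pos hw₀ (1 - 1 / ((n : ℝ) + 1))
    have := Real.rpow_pos_of_pos hw₁ (1 - 1 / ((n : ℝ) + 1))
    positivity
  have hpow : ((F⁻¹ + G⁻¹) ^ (1 / ((n : ℝ) + 1)) *
      (p ^ (-(1 : ℝ) / n) + q ^ (-(1 : ℝ) / n)) ^ (1 - 1 / ((n : ℝ) + 1))) ^ (n + 1) =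
      (F⁻¹ + G⁻¹) * (p ^ (-(1 : ℝ) / n) + q ^ (-(1 : ℝ) / n)) ^ n := by
    rw [mul_pow, ← Real.rpow_natCast _ (n + 1), ← Real.rpow_natCast _ (n + 1),
      ← Real.rpow_mul hU.le, ← Real.rpow_mul hW.le]
    have e1 : 1 / ((n : ℝ) + 1) * ((n + 1 : ℕ) : ℝ) = 1 := by push_cast; field_simp
    have e2 : (1 - 1 / ((n : ℝ) + 1)) * ((n + 1 : ℕ) : ℝ) = (n : ℝ) := by
      push_cast; field_simp; ring
    rw [e1, e2, Real.rpow_one, Real.rpow_natCast]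
  calc (((F⁻¹) ^ (1 / ((n : ℝ) + 1)) * (p ^ (-(1 : ℝ) / n)) ^ (1 - 1 / ((n : ℝ) + 1)) +
        (G⁻¹) ^ (1 / ((n : ℝ) + 1)) * (q ^ (-(1 : ℝ) / n)) ^ (1 - 1 / ((n : ℝ) + 1))) / 2) ^ (n + 1)
      ≤ (((F⁻¹ + G⁻¹) ^ (1 / ((n : ℝ) + 1)) *
          (p ^ (-(1 : ℝ) / n) + q ^ (-(1 : ℝ) / n)) ^ (1 - 1 / ((n : ℝ) + 1))) / 2) ^ (n + 1) := by
        apply pow_le_pow_left₀ (by positivity)
        exact div_le_div_of_nonneg_right hH (by norm_num)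
    _ = (F⁻¹ + G⁻¹) / 2 * ((p ^ (-(1 : ℝ) / n) + q ^ (-(1 : ℝ) / n)) / 2) ^ n := by
        rw [div_pow, hpow, div_pow]
        ring

/-- Comparison with the arithmetic mean: `2/(p+q) ≤ bblOmega n p q`. -/
theorem two_div_add_le_bblOmega (n : ℕ) (hn : 1 ≤ n) {p q : ℝ} (hp : 0 < p) (hq : 0 < q) :
    2 / (p + q) ≤ bblOmega n p q := by
  have hn0 : (0 : ℝ) < n := by exact_mod_cast hn
  unfold bblOmega
  have hr : 0 < p ^ (-(1 : ℝ) / n) := Real.rpow_pos_of_pos hp _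
  have hs : 0 < q ^ (-(1 : ℝ) / n) := Real.rpow_pos_of_pos hq _
  -- AM-GM: ((r+s)/2)^n ≥ (sqrt (r s))^n, and (r s)^n = 1/(p q)
  have hrn : (p ^ (-(1 : ℝ) / n)) ^ n = p⁻¹ := by
    rw [← Real.rpow_natCast, ← Real.rpow_mul hp.le]
    have : -(1 : ℝ) / n * n = -1 := by field_simp
    rw [this, Real.rpow_neg_one]
  have hsn : (q ^ (-(1 : ℝ) / n)) ^ n = q⁻¹ := by
    rw [← Real.rpow_natCast, ← Real.rpow_mul hq.le]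
    have : -(1 : ℝ) / n * n = -1 := by field_simp
    rw [this, Real.rpow_neg_one]
  have hamgm : p ^ (-(1 : ℝ) / n) * q ^ (-(1 : ℝ) / n) ≤
      ((p ^ (-(1 : ℝ) / n) + q ^ (-(1 : ℝ) / n)) / 2) ^ 2 := by
    nlinarith [sq_nonneg (p ^ (-(1 : ℝ) / n) - q ^ (-(1 : ℝ) / n))]
  have h1 : (p ^ (-(1 : ℝ) / n) * q ^ (-(1 : ℝ) / n)) ^ n ≤
      (((p ^ (-(1 : ℝ) / n) + q ^ (-(1 : ℝ) / n)) / 2) ^ n) ^ 2 := by
    rw [← pow_mul, mul_comm n 2, pow_mul]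
    exact pow_le_pow_left₀ (by positivity) hamgm n
  rw [mul_pow, hrn, hsn] at h1
  have hX : 0 < ((p ^ (-(1 : ℝ) / n) + q ^ (-(1 : ℝ) / n)) / 2) ^ n := by positivity
  -- X^2 ≥ 1/(p q) and want X ≥ 2/(p+q); since (2/(p+q))^2 ≤ 1/(p q)
  have h2 : (2 / (p + q)) ^ 2 ≤ p⁻¹ * q⁻¹ := by
    rw [div_pow, div_le_iff₀ (by positivity), ← mul_inv, inv_mul_eq_div, le_div_iff₀ (by positivity)]
    nlinarith [sq_nonneg (p - q)]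
  have h3 : (2 / (p + q)) ^ 2 ≤
      (((p ^ (-(1 : ℝ) / n) + q ^ (-(1 : ℝ) / n)) / 2) ^ n) ^ 2 := h2.trans h1
  exact le_of_sq_le_sq h3 hX.le |> fun h => h
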