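import Vale.Agent.H22.BBL.Quantile

/-!
# The Borell-Brascamp-Lieb inequality in transport form: definition and the one-dimensional case
-/

namespace Vale.Agent.H22

open MeasureTheory Set Filter Topology

/-- The Borell-Brascamp-Lieb inequality in transport form with exponent parameter `n` for the
measure `μ` on a real vector space: if `f₀, f₁ ≥ 0` are integrable with the same integral,
`a, b` are bounded and `a x + b x' ≤ h ((x + x')/2) * bblOmega n (f₀ x) (f₁ x')` whenever
`f₀ x > 0` and `f₁ x' > 0`, then `∫ a f₀ + ∫ b f₁ ≤ ∫ h`. -/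
def BBLProp {X : Type*} [AddCommGroup X] [Module ℝ X] [MeasurableSpace X] (μ : Measure X)
    (n : ℕ) : Prop :=
  ∀ (f₀ f₁ a b : X → ℝ) (h : X → ENNReal) (C : ℝ),
    Measurable f₀ → Measurable f₁ → Measurable a → Measurable b → Measurable h →
    (∀ x, 0 ≤ f₀ x) → (∀ x, 0 ≤ f₁ x) → Integrable f₀ μ → Integrable f₁ μ →
    (∀ x, |a x| ≤ C) → (∀ x, |b x| ≤ C) →
    ∫ x, f₀ x ∂μ = ∫ x, f₁ x ∂μ →
    (∀ x x', 0 < f₀ x → 0 < f₁ x' →
      ENNReal.ofReal (a x + b x') ≤
        h ((1 / 2 : ℝ) • (x + x')) * ENNReal.ofReal (bblOmega n (f₀ x) (f₁ x'))) →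
    ENNReal.ofReal (∫ x, a x * f₀ x ∂μ + ∫ x, b x * f₁ x ∂μ) ≤ ∫⁻ x, h x ∂μ

theorem ofReal_integral_le_lintegral {α : Type*} [MeasurableSpace α] {μ : Measure α}
    {g : α → ℝ} (hg : Integrable g μ) :
    ENNReal.ofReal (∫ x, g x ∂μ) ≤ ∫⁻ x, ENNReal.ofReal (g x) ∂μ := by
  have h1 : ∫ x, g x ∂μ ≤ ∫ x, max (g x) 0 ∂μ :=
    integral_mono hg hg.pos_part (fun x => le_max_left _ _)
  calc ENNReal.ofReal (∫ x, g x ∂μ) ≤ ENNReal.ofReal (∫ x, max (g x) 0 ∂μ) :=
        ENNReal.ofReal_le_ofReal h1
    _ = ∫⁻ x, ENNReal.ofReal (max (g x) 0) ∂μ :=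
        ofReal_integral_eq_lintegral_ofReal hg.pos_part (ae_of_all _ fun x => le_max_right _ _)
    _ = ∫⁻ x, ENNReal.ofReal (g x) ∂μ := by
        congr 1
        ext x
        rcases le_total (g x) 0 with h | h
        · simp [h, ENNReal.ofReal_of_nonpos h]
        · simp [h]

/-- The measure with density `f` with respect to Lebesgue measure on the line. -/
noncomputable def densMeasure (f : ℝ → ℝ) : Measure ℝ :=
  volume.withDensity (fun x => ENNReal.ofReal (f x))

theorem densMeasure_univ {f : ℝ → ℝ} (hf : ∀ x, 0 ≤ f x) (hi : Integrable f) :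
    densMeasure f univ = ENNReal.ofReal (∫ x, f x) := by
  rw [densMeasure, withDensity_apply _ MeasurableSet.univ, Measure.restrict_univ,
    ofReal_integral_eq_lintegral_ofReal hi (ae_of_all _ hf)]

theorem densMeasure_finite {f : ℝ → ℝ} (hi : Integrable f) :
    IsFiniteMeasure (densMeasure f) :=
  isFiniteMeasure_withDensity_ofReal hi.2

/-- Change of variables by the quantile function. -/
theorem integral_mul_eq_quantile {f g : ℝ → ℝ} (hfm : Measurable f) (hf : ∀ x, 0 ≤ f x)
    (hi : Integrable f) (hgm : Measurable g) {m : ℝ} (hm : ∫ x, f x = m) :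
    ∫ x, g x * f x = ∫ u in Ioo 0 m, g (quantileM (densMeasure f) m u) := by
  have hfin := densMeasure_finite hi
  have hmu : densMeasure f univ = ENNReal.ofReal m := by rw [densMeasure_univ hf hi, hm]
  have hQ := quantileM_measurable (densMeasure f) hmu
  have h1 : ∫ x, g x ∂(densMeasure f) = ∫ x, g x * f x := by
    rw [densMeasure, integral_withDensity_eq_integral_toReal_smul
      hfm.ennreal_ofReal (ae_of_all _ fun _ => ENNReal.ofReal_lt_top)]
    congr 1
    ext x
    rw [ENNReal.toReal_ofReal (hf x), smul_eq_mul, mul_comm]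
  rw [← h1]
  conv_lhs => rw [← map_quantileM (densMeasure f) hmu]
  rw [integral_map hQ.aemeasurable hgm.aestronglyMeasurable]

/-- Almost every quantile lies in the positivity set of the density. -/
theorem ae_pos_quantile {f : ℝ → ℝ} (hfm : Measurable f) (hf : ∀ x, 0 ≤ f x)
    (hi : Integrable f) {m : ℝ} (hm : ∫ x, f x = m) :
    ∀ᵐ u ∂(volume.restrict (Ioo 0 m)), 0 < f (quantileM (densMeasure f) m u) := by
  have hfin := densMeasure_finite hi
  have hmu : densMeasure f univ = ENNReal.ofReal m := by rw [densMeasure_univ hf hi, hm]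
  have hQ := quantileM_measurable (densMeasure f) hmu
  have hs : MeasurableSet {x : ℝ | f x ≤ 0} := measurableSet_le hfm measurable_const
  have h0 : densMeasure f {x : ℝ | f x ≤ 0} = 0 := by
    rw [densMeasure, withDensity_apply _ hs]
    rw [setLIntegral_congr_fun hs (g := fun _ => 0)
      (fun x hx => ENNReal.ofReal_of_nonpos hx)]
    simp
  rw [← map_quantileM (densMeasure f) hmu, Measure.map_apply hQ hs] at h0
  have h1 := (measure_eq_zero_iff_ae_notMem).1 h0
  filter_upwards [h1] with u hu
  simpa using hu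

/-- The image of the inverse-density measure under the quantile map is dominated by Lebesgue
measure. -/
theorem map_inv_density_le {f : ℝ → ℝ} (hfm : Measurable f) (hf : ∀ x, 0 ≤ f x)
    (hi : Integrable f) {m : ℝ} (hm : ∫ x, f x = m) :
    ((volume.restrict (Ioo 0 m)).withDensity
      (fun u => ENNReal.ofReal (f (quantileM (densMeasure f) m u))⁻¹)).map
        (quantileM (densMeasure f) m) ≤ volume := by
  have hfin := densMeasure_finite hi
  have hmu : densMeasure f univ = ENNReal.ofReal m := by rw [densMeasure_univ hf hi, hm]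
  have hQ := quantileM_measurable (densMeasure f) hmu
  refine Measure.le_iff.2 fun B hB => ?_
  rw [Measure.map_apply hQ hB, withDensity_apply _ (hQ hB)]
  have hind : Measurable (B.indicator fun x => ENNReal.ofReal (f x)⁻¹) :=
    hfm.inv.ennreal_ofReal.indicator hB
  have e1 : ∫⁻ u in quantileM (densMeasure f) m ⁻¹' B,
      ENNReal.ofReal (f (quantileM (densMeasure f) m u))⁻¹ ∂(volume.restrict (Ioo 0 m)) =
      ∫⁻ u, (B.indicator fun x => ENNReal.ofReal (f x)⁻¹) (quantileM (densMeasure f) m u)
        ∂(volume.restrict (Ioo 0 m)) := by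
    rw [← lintegral_indicator (hQ hB)]
    congr 1
  rw [e1, ← lintegral_map hind hQ, map_quantileM (densMeasure f) hmu, densMeasure,
    lintegral_withDensity_eq_lintegral_mul _ hfm.ennreal_ofReal hind]
  calc ∫⁻ x, ((fun x => ENNReal.ofReal (f x)) * (B.indicator fun x => ENNReal.ofReal (f x)⁻¹)) x
      ≤ ∫⁻ x, B.indicator 1 x := by
        apply lintegral_mono
        intro x
        simp only [Pi.mul_apply]
        by_cases hx : x ∈ B
        · simp only [indicator_of_mem hx, Pi.one_apply]
          rw [← ENNReal.ofReal_mul (hf x)]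
          have : f x * (f x)⁻¹ ≤ 1 := mul_inv_le_one
          exact (ENNReal.ofReal_le_ofReal this).trans (by simp)
        · simp [indicator_of_notMem hx]
    _ = volume B := by rw [lintegral_indicator_one hB]

end Vale.Agent.H22
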