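import Vale.Agent.H22.BBL.Omega

/-!
# Quantile functions of finite measures on the real line, and a comparison lemma
-/

namespace Vale.Agent.H22

open MeasureTheory Set Filter Topology

/-- A measure on `ℝ` which gives every interval `(a, b]` mass at most `b - a` is dominated by
Lebesgue measure. -/
theorem measure_le_volume_of_Ioc (ν : Measure ℝ)
    (h : ∀ a b : ℝ, ν (Ioc a b) ≤ ENNReal.ofReal (b - a)) : ν ≤ volume := by
  refine Measure.le_iff.2 fun s _ => ?_
  have hvol : (volume : Measure ℝ) s = StieltjesFunction.id.outer s := by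
    rw [Real.volume_eq_stieltjes_id, StieltjesFunction.measure]
    rfl
  rw [hvol]
  have hle : ν.toOuterMeasure ≤ StieltjesFunction.id.outer := by
    refine OuterMeasure.le_ofFunction.2 fun t => ?_
    rw [StieltjesFunction.length_eq]
    refine le_iInf fun a => le_iInf fun b => le_iInf fun hab => ?_
    have ht : t ⊆ Ioc a b := by
      intro x hx
      exact hab ⟨hx, by simp [botSet]⟩
    exact (measure_mono ht).trans (by simpa using h a b)
  exact hle s

/-- The quantile function of a measure on the real line. -/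
noncomputable def quantileFn (μ : Measure ℝ) (u : ℝ) : ℝ :=
  sInf {x : ℝ | ENNReal.ofReal u ≤ μ (Iic x)}

theorem quantileFn_le_iff (μ : Measure ℝ) [IsFiniteMeasure μ] {m u : ℝ}
    (hm : μ univ = ENNReal.ofReal m) (hu : u ∈ Ioo 0 m) (x : ℝ) :
    quantileFn μ u ≤ x ↔ ENNReal.ofReal u ≤ μ (Iic x) := by
  have hupos : 0 < ENNReal.ofReal u := ENNReal.ofReal_pos.2 hu.1
  have hult : ENNReal.ofReal u < μ univ := by
    rw [hm]; exact (ENNReal.ofReal_lt_ofReal_iff (hu.1.trans hu.2)).2 hu.2
  -- the set is nonempty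
  have hne : {x : ℝ | ENNReal.ofReal u ≤ μ (Iic x)}.Nonempty := by
    have ht : Tendsto (fun x => μ (Iic x)) atTop (𝓝 (μ univ)) := tendsto_measure_Iic_atTop μ
    obtain ⟨x, hx⟩ := (ht.eventually (lt_mem_nhds hult)).exists
    exact ⟨x, hx.le⟩
  -- the set is bounded below
  have hbdd : BddBelow {x : ℝ | ENNReal.ofReal u ≤ μ (Iic x)} := by
    have ht : Tendsto (fun n : ℕ => μ (Iic (-(n : ℝ)))) atTop (𝓝 (μ (⋂ n : ℕ, Iic (-(n : ℝ))))) := by
      apply tendsto_measure_iInter_atTop (fun n => nullMeasurableSet_Iic)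
      · intro a b hab
        exact Iic_subset_Iic.2 (by simpa using (Nat.cast_le (α := ℝ)).2 hab)
      · exact ⟨0, measure_ne_top _ _⟩
    have hempty : (⋂ n : ℕ, Iic (-(n : ℝ))) = ∅ := by
      ext y
      simp only [mem_iInter, mem_Iic, mem_empty_iff_false, iff_false, not_forall, not_le]
      obtain ⟨n, hn⟩ := exists_nat_gt (-y)
      exact ⟨n, by linarith⟩
    rw [hempty, measure_empty] at ht
    obtain ⟨n, hn⟩ := (ht.eventually (gt_mem_nhds hupos)).exists
    refine ⟨-(n : ℝ), fun x hx => ?_⟩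
    by_contra hlt
    push Not at hlt
    have : μ (Iic x) ≤ μ (Iic (-(n : ℝ))) := measure_mono (Iic_subset_Iic.2 hlt.le)
    exact absurd (le_trans hx this) (not_le.2 hn)
  -- the set is upward closed
  have hup : ∀ x y : ℝ, x ≤ y → ENNReal.ofReal u ≤ μ (Iic x) → ENNReal.ofReal u ≤ μ (Iic y) :=
    fun x y hxy hx => hx.trans (measure_mono (Iic_subset_Iic.2 hxy))
  constructor
  · intro hq
    -- first show the infimum belongs to the set
    have hmem : ENNReal.ofReal u ≤ μ (Iic (quantileFn μ u)) := by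
      have ht : Tendsto (fun n : ℕ => μ (Iic (quantileFn μ u + 1 / ((n : ℝ) + 1)))) atTop
          (𝓝 (μ (⋂ n : ℕ, Iic (quantileFn μ u + 1 / ((n : ℝ) + 1))))) := by
        apply tendsto_measure_iInter_atTop (fun n => nullMeasurableSet_Iic)
        · intro a b hab
          apply Iic_subset_Iic.2
          have hab' : (a : ℝ) ≤ b := (Nat.cast_le (α := ℝ)).2 hab
          have : 1 / ((b : ℝ) + 1) ≤ 1 / ((a : ℝ) + 1) :=
            one_div_le_one_div_of_le (by positivity) (by linarith)
          linarith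
        · exact ⟨0, measure_ne_top _ _⟩
      have hInter : (⋂ n : ℕ, Iic (quantileFn μ u + 1 / ((n : ℝ) + 1))) = Iic (quantileFn μ u) := by
        ext y
        simp only [mem_iInter, mem_Iic]
        constructor
        · intro hy
          by_contra hlt
          push Not at hlt
          obtain ⟨n, hn⟩ := exists_nat_gt (1 / (y - quantileFn μ u))
          have hpos : 0 < y - quantileFn μ u := by linarith
          have h1 : 1 / ((n : ℝ) + 1) < y - quantileFn μ u := by
            rw [div_lt_iff₀ (by positivity)]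
            rw [div_lt_iff₀ hpos] at hn
            nlinarith
          have := hy n
          linarith
        · intro hy n
          have : (0 : ℝ) < 1 / ((n : ℝ) + 1) := by positivity
          linarith
      rw [hInter] at ht
      refine ge_of_tendsto' ht fun n => ?_
      have hlt : quantileFn μ u < quantileFn μ u + 1 / ((n : ℝ) + 1) := by
        have : (0 : ℝ) < 1 / ((n : ℝ) + 1) := by positivity
        linarith
      obtain ⟨s, hs, hsl⟩ := exists_lt_of_csInf_lt hne hlt
      exact hup s _ hsl.le hs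
    exact hup _ _ hq hmem
  · intro hx
    exact csInf_le hbdd hx

theorem quantileFn_monotoneOn (μ : Measure ℝ) [IsFiniteMeasure μ] {m : ℝ}
    (hm : μ univ = ENNReal.ofReal m) : MonotoneOn (quantileFn μ) (Ioo 0 m) := by
  intro u hu v hv huv
  rw [quantileFn_le_iff μ hm hu]
  have h1 : ENNReal.ofReal v ≤ μ (Iic (quantileFn μ v)) :=
    (quantileFn_le_iff μ hm hv _).1 le_rfl
  exact (ENNReal.ofReal_le_ofReal huv).trans h1

theorem quantileFn_aemeasurable (μ : Measure ℝ) [IsFiniteMeasure μ] {m : ℝ}
    (hm : μ univ = ENNReal.ofReal m) :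
    AEMeasurable (quantileFn μ) (volume.restrict (Ioo 0 m)) :=
  aemeasurable_restrict_of_monotoneOn measurableSet_Ioo (quantileFn_monotoneOn μ hm)

/-- The quantile function pushes Lebesgue measure on `(0, m)` forward to `μ`. -/
theorem map_quantileFn (μ : Measure ℝ) [IsFiniteMeasure μ] {m : ℝ}
    (hm : μ univ = ENNReal.ofReal m) :
    (volume.restrict (Ioo 0 m)).map (quantileFn μ) = μ := by
  have hae := quantileFn_aemeasurable μ hm
  have : IsFiniteMeasure ((volume.restrict (Ioo 0 m)).map (quantileFn μ)) := by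
    constructor
    rw [Measure.map_apply_of_aemeasurable hae MeasurableSet.univ]
    simp
  symm
  refine Measure.ext_of_Iic _ _ fun x => ?_
  rw [Measure.map_apply_of_aemeasurable hae measurableSet_Iic,
    Measure.restrict_apply' measurableSet_Ioo]
  have hle : μ (Iic x) ≤ ENNReal.ofReal m := hm ▸ measure_mono (subset_univ _)
  have hset : quantileFn μ ⁻¹' Iic x ∩ Ioo 0 m = Ioo 0 m ∩ Iic (μ (Iic x)).toReal := by
    ext u
    simp only [mem_inter_iff, mem_preimage, mem_Iic]
    constructor
    · rintro ⟨h1, h2⟩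
      refine ⟨h2, ?_⟩
      have := (quantileFn_le_iff μ hm h2 x).1 h1
      exact (ENNReal.ofReal_le_iff_le_toReal (measure_ne_top _ _)).1 this
    · rintro ⟨h2, h1⟩
      refine ⟨(quantileFn_le_iff μ hm h2 x).2 ?_, h2⟩
      exact (ENNReal.ofReal_le_iff_le_toReal (measure_ne_top _ _)).2 h1
  rw [hset]
  have htr : (μ (Iic x)).toReal ≤ m ∨ m ≤ 0 := by
    by_cases hm0 : m ≤ 0
    · exact Or.inr hm0
    · left
      push Not at hm0
      exact (ENNReal.toReal_le_of_le_ofReal hm0.le hle)
  rcases htr with htr | hm0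
  · rcases lt_or_eq_of_le htr with hlt | heq
    · have : Ioo 0 m ∩ Iic (μ (Iic x)).toReal = Ioc 0 (μ (Iic x)).toReal := by
        ext u
        simp only [mem_inter_iff, mem_Ioo, mem_Iic, mem_Ioc]
        constructor
        · rintro ⟨⟨h1, _⟩, h3⟩; exact ⟨h1, h3⟩
        · rintro ⟨h1, h3⟩; exact ⟨⟨h1, lt_of_le_of_lt h3 hlt⟩, h3⟩
      rw [this, Real.volume_Ioc, sub_zero, ENNReal.ofReal_toReal (measure_ne_top _ _)]
    · have : Ioo 0 m ∩ Iic (μ (Iic x)).toReal = Ioo 0 m := by
        ext u
        simp only [mem_inter_iff, mem_Ioo, mem_Iic, and_iff_left_iff_imp]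
        rintro ⟨_, h2⟩; rw [heq]; exact h2.le
      rw [this, Real.volume_Ioo, sub_zero, ← heq, ENNReal.ofReal_toReal (measure_ne_top _ _)]
  · have h0 : μ (Iic x) = 0 := by
      have : ENNReal.ofReal m = 0 := ENNReal.ofReal_eq_zero.2 hm0
      rw [this] at hle
      exact le_antisymm hle bot_le
    have : Ioo 0 m = ∅ := Ioo_eq_empty (by linarith)
    rw [this, empty_inter, measure_empty, h0]

/-- The quantile function, set to zero outside `(0, m)`; this version is measurable. -/
noncomputable def quantileM (μ : Measure ℝ) (m : ℝ) (u : ℝ) : ℝ :=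
  if u ∈ Ioo 0 m then quantileFn μ u else 0

theorem quantileM_of_mem (μ : Measure ℝ) {m u : ℝ} (hu : u ∈ Ioo 0 m) :
    quantileM μ m u = quantileFn μ u := by
  simp [quantileM, hu]

theorem quantileM_le_iff (μ : Measure ℝ) [IsFiniteMeasure μ] {m u : ℝ}
    (hm : μ univ = ENNReal.ofReal m) (hu : u ∈ Ioo 0 m) (x : ℝ) :
    quantileM μ m u ≤ x ↔ ENNReal.ofReal u ≤ μ (Iic x) := by
  rw [quantileM_of_mem μ hu]
  exact quantileFn_le_iff μ hm hu x

theorem quantileM_monotoneOn (μ : Measure ℝ) [IsFiniteMeasure μ] {m : ℝ}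
    (hm : μ univ = ENNReal.ofReal m) : MonotoneOn (quantileM μ m) (Ioo 0 m) := by
  intro u hu v hv huv
  rw [quantileM_of_mem μ hu, quantileM_of_mem μ hv]
  exact quantileFn_monotoneOn μ hm hu hv huv

theorem quantileM_measurable (μ : Measure ℝ) [IsFiniteMeasure μ] {m : ℝ}
    (hm : μ univ = ENNReal.ofReal m) : Measurable (quantileM μ m) := by
  refine measurable_of_Iic fun x => ?_
  have hset : quantileM μ m ⁻¹' Iic x =
      (Ioo 0 m ∩ Iic (μ (Iic x)).toReal) ∪ ((Ioo 0 m)ᶜ ∩ {_u : ℝ | (0 : ℝ) ≤ x}) := by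
    ext u
    simp only [mem_preimage, mem_Iic, mem_union, mem_inter_iff, mem_compl_iff, Set.mem_ofPred_eq]
    by_cases hu : u ∈ Ioo 0 m
    · rw [quantileM_le_iff μ hm hu, ENNReal.ofReal_le_iff_le_toReal (measure_ne_top _ _)]
      simp [hu]
    · simp [quantileM, hu]
  rw [hset]
  refine (measurableSet_Ioo.inter measurableSet_Iic).union (measurableSet_Ioo.compl.inter ?_)
  by_cases hx : (0 : ℝ) ≤ x
  · simp [hx]
  · simp [hx]

/-- The measurable quantile function pushes Lebesgue measure on `(0, m)` forward to `μ`. -/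
theorem map_quantileM (μ : Measure ℝ) [IsFiniteMeasure μ] {m : ℝ}
    (hm : μ univ = ENNReal.ofReal m) :
    (volume.restrict (Ioo 0 m)).map (quantileM μ m) = μ := by
  refine (Measure.map_congr ?_).trans (map_quantileFn μ hm)
  filter_upwards [ae_restrict_mem measurableSet_Ioo] with u hu
  exact quantileM_of_mem μ hu

end Vale.Agent.H22
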